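import Vale.Agent.P154.I9.Data

namespace Vale.Agent.P154.I9

open Cert

/-- Chart (0, 0). -/
def P00 : Pb := chartPb false false Nd w G [(2,0),(0,2)]

/-- Chart (0, 1). -/
def P01 : Pb := chartPb false true Nd w G [(2,0),(0,2)]

/-- Chart (1, 0). -/
def P10 : Pb := chartPb true false Nd w G [(2,0),(0,2)]

/-- Chart (1, 1). -/
def P11 : Pb := chartPb true true Nd w G [(2,0),(0,2)]

end Vale.Agent.P154.I9
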