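import Vale.Agent.P154.I9.Data

set_option maxRecDepth 100000

namespace Vale.Agent.P154.I9

open PolyR Cert Data

theorem hsmall : smallW S.Nm S.FP = true := by decide +kernel

theorem hMP : beqP (normP S.MP) (normP (flatI S.G)) = true := by decide +kernel

theorem hdeg : degOK Nd G = true := by decide +kernel

end Vale.Agent.P154.I9
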