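import Vale.Agent.P154.I9.Charts

set_option maxRecDepth 100000

namespace Vale.Agent.P154.I9

open Cert InT OutT

/-- Certificate tree. -/
def tr01_r0 : OutT :=
(A (A (A (A (A (A (A (O (c (c (c (c (c (c z (c l l)) (c l l)) (c l l)) (c (d l l) (d l l))) (c (d (c l l) (c l l)) (d (c l l) (c l l)))) (c (d (c (d l l) k) (c l k)) k))) (O (c (c (c (c (c (c (c l l) l) (c l l)) (c l l)) (c (d l l) (d l l))) (c (d (c l l) (c l l)) (d (c l l) (c l l)))) (c (d (c (d l l) k) (c l k)) k)))) (O (c (c (c (c (c (c l l) (c l l)) (c l l)) (c (d l l) (d l l))) (c (d (c l l) (c l l)) (d (c l l) (c l l)))) (c (d (c (d l l) k) (c l k)) k)))) (O (c (c (c (c (c (c l l) l) (c l l)) (c (d l l) (d l l))) (c (d (c l l) (c l l)) (d (c l l) (c l l)))) (c (d (c (d l l) k) (c l k)) k)))) (A (O (c (c (c (c l l) (c l (d l l))) (c (d (c l l) (c l l)) (d (c l l) l))) (c (d (c (d l l) k) (c l k)) k))) (O (c (c (c (c l l) (c l l)) (c (d (c l l) (c l l)) (d (c l l) l)))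 (c (d (c (d l l) k) (c l k)) k))))) (A (O (c (c (c (c l l) (c l l)) (c (d (c l l) (c l l)) (d (c l l) (c l l)))) (c (d (c (d l l) k) (c l k)) k))) (O (c (c (c l (c l l)) (c (d l (c l l)) (d l l))) (c (d (c (d l l) k) (c l k)) k))))) (A (B (O (c (c (c l (c l l)) (c (d l (c l l)) (d l (c l l)))) (c (d (c (d l l) k) (c l k)) k))) (O (c (c (c l (c l l)) (c (d l (c l l)) (d l (c l l)))) (c (d (c (d l l) k) (c l k)) k)))) (B (O (c (c (c l l) (c (d l l) (d l l))) (c (d (c l k) (c l k)) k))) (O (c (c l (c l (d l l))) (c (d (c l k) (c l k)) k)))))) (A (B (A (O (c (c l (c l (d l l))) (c (d (c l k) (c (d l l) k)) k))) (O (c (c l (c (d l l) (d l (c l l)))) (c (d (c (d l l) k) (c (d l l) k)) k)))) (A (O (c (c l (c l (d l l))) (c (d (c l k) (c l k)) k))) (O (c (c l (c l (d l l))) (c (d (c l k) (c (d l l) k)) k))))) (B (A (B (O (c (c l (c l l)) (c (d (c l k) (c (d l l) k)) k))) (O (c (c l (c l l)) (c (d (c l k) (c l k)) k)))) (B (O (c (c l (c (d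 l l) (d l (c l (d l (c l l)))))) (c (d (c (d l (c l k)) k) (c (d (c (d l l) k) (c (d l l) k)) k)) k))) (A (O (c l (c (d l (c l k)) k))) (O (c (c l l) (c (d l (c l k)) k)))))) (A (B (O (c (c l l) (c (d (c l k) (c l k)) k))) (O (c (c l l) (c (d (c l k) (c l k)) k)))) (B (A (O (c l (c (d l (c l k)) k))) (O (c l (c (d l (c l k)) k)))) (A (O (c l (c (d l l) k))) (O (c l (c (d l l) k)))))))))

theorem s01_r0 : Sound P01 0 16384 0 32768 :=
  chkOut_sound P01 tr01_r0 0 16384 0 32768 (by decide +kernel)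

end Vale.Agent.P154.I9
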