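import Vale.Agent.P154.I9.Charts

set_option maxRecDepth 100000

namespace Vale.Agent.P154.I9

open Cert InT OutT

/-- Certificate tree. -/
def tr01_r11 : OutT :=
(B (A s s) (A (B (A (B s (A (B s (A s s)) s)) (B s (A s s))) (A (B (A (B (A (B (O (c (c l l) (c (d (c l k) (c (d l (c l k)) k)) k))) (O (c l (c (d (c l k) (c l k)) k)))) (B s (A s s))) (A (B (O (c l (c (d (c l k) (c l k)) k))) (O (c l (c (d l (c l k)) k)))) (B (A (O (c l (c (d l l) k))) (O (c l (c (d l l) k)))) (O (c l (c (d (c l k) (c l k)) k)))))) (B (A s s) (A (B (A s s) (A (O (c l (c (d l l) k))) (O (c l (c (d l l) k))))) (B (A s s) (A (O (c l (c (d l l) k))) s))))) (A (B (A (B (O (c l (c (d l (c l k)) k))) (O (c l (c (d l l) k)))) (B (O (c l (c (d l (c l k)) k))) (O (c l (c (d l (c l k)) k))))) (A (B (O (c l (c l k))) (O (c l (c l k)))) (B (O (c l (c (d l l) k))) (O (c l (c l k)))))) (B (A (B (A (O (c l (c l k))) (O (c l (c l k)))) (A (O (c l (c l k))) (O (c l (c l k))))) (B (A (O (c l (c l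 k))) (O (c l (c l k)))) (A (O (c l (c l k))) (O (c l (c l k)))))) (A (B (A (O (c l (c l k))) (O (c l (c l k)))) (A (O (c l (c l k))) (O (c l (c l k))))) (B (A (O (c l (c l k))) (O (c l (c l k)))) (A (O (c l (c l k))) (O (c l (c l k))))))))) (B (A (B s (A (B s (A s s)) s)) (B s (A s s))) (A (B (A (B (A (O (c l (c (d l l) k))) (O (c l (c (d l l) k)))) (A (O (c l (c l k))) (O (c l (c l k))))) (B (A (O (c l (c (d l l) k))) s) (A (O (c l (c l k))) (O (c l (c l k)))))) (A (B (A (O (c l (c l k))) (O (c l (c l k)))) (A (O (c l (c l k))) (O (c l (c l k))))) (B (A (O (c l (c l k))) (O (c l (c l k)))) (A (O (c l (c l k))) (O (c l (c l k))))))) (B (A (B (A s s) (A (O (c l (c (d l l) k))) (O (c l (c (d l l) k))))) (B s (A (O (c l (c (d l l) k))) (O (c l (c (d l l) k)))))) (A (B (A (O (c l (c l k))) (O (c l (c l k)))) (A (O (c l (c l k))) (O (c l (c l k))))) (B (A (O (c l (c l k))) (O (c l (c l k)))) (A (O (c l (c l k))) (O (c l (c l k))))))))))) (B (A s s) (A (B (A (B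 s (A s s)) s) (A (B (A (B s (A s s)) (B s (A s s))) (A (B (A (B (O (c l (c l k))) (O (c l (c l k)))) (B (O (c l (c l k))) (O (c l (c l k))))) (A (B (O (c l (c l k))) (O (c l (c l k)))) (B (O (c l (c l k))) (O (c l (c l k)))))) (B (A (B (O (c l (c l k))) (O (c l (c l k)))) (B s (O (c l (c l k))))) (A (B (O (c l (c l k))) (O (c l (c l k)))) (B (O (c l (c l k))) (O (c l (c l k)))))))) (B (A (B s (A s s)) s) (A (B (A (B s (O (c l (c l k)))) (B s (A s s))) (A (B (O (c l (c l k))) (A (O (c l (c l k))) (O (c l (c l k))))) (B (A (O (c l (c l k))) (O (c l (c l k)))) (A (O (c l (c l k))) (O (c l (c l k))))))) (B (A (B s (A s s)) (B s (A s s))) (A (B (A (O (c l (c l k))) (O (c l (c l k)))) (A (O (c l (c l k))) (O (c l (c l k))))) (B (A (O (c l (c l k))) (O (c l (c l k)))) (A (O (c l (c l k))) (O (c l (c l k))))))))))) (B (A s s) (A (B (A s s) (A (B (A s s) (A (B (A (O (c l (c l k))) (O (c l (c l k)))) (A (O (c l (c l k))) (O (c l (c l k))))) (B (A (O (c l (c l k)))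 (O (c l (c l k)))) (A (O (c l (c l k))) (O (c l (c l k))))))) (B (A s s) (A (B (A (O (c l (c l k))) s) (A (O (c l (c l k))) (O (c l (c l k))))) (B (A s s) (A (O (c l (c l k))) (O (c l (c l k))))))))) (B (A s s) (A (B (A s s) (A (B (A s s) (A (O (c l (c l k))) (O (c l (c l k))))) (B (A s s) (A (O (c l (c l k))) (O (c l (c l k))))))) (B (A s s) (A (B (A s s) (A (O (c l (c l k))) (O (c l (c l k))))) (B (A s s) (A (O (c l (c l k))) (O (c l (c l k)))))))))))))))

theorem s01_r11 : Sound P01 49152 8192 0 32768 :=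
  chkOut_sound P01 tr01_r11 49152 8192 0 32768 (by decide +kernel)

end Vale.Agent.P154.I9
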